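import Mathlib

/-!
# P192: finitely generated periodic groups with an abelian subgroup of finite index are finite
-/

namespace Vale.Agent.Results.P192.VirtuallyAbelian

theorem result (G : Type) [Group G] [Group.FG G] (hper : ∀ g : G, IsOfFinOrder g)
    (H : Subgroup G) [H.FiniteIndex] (hab : ∀ a ∈ H, ∀ b ∈ H, a * b = b * a) : Finite G := by
  have hfg : Group.FG H := inferInstance
  let _ : CommGroup H :=
    { (inferInstance : Group H) with mul_comm := fun a b => Subtype.ext (hab a a.2 b b.2) }
  have tors : IsMulTorsion H := fun h =>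
    (Submonoid.isOfFinOrder_coe (H := H.toSubmonoid) (x := h)).1 (hper h)
  have hfin : Finite H := CommGroup.finite_of_fg_isMulTorsion H tors
  have h1 : Nat.card H ≠ 0 := Nat.card_pos.ne'
  have h2 : H.index ≠ 0 := Subgroup.FiniteIndex.index_ne_zero
  have h3 : Nat.card G ≠ 0 := by
    rw [← H.card_mul_index]
    exact Nat.mul_ne_zero h1 h2
  exact Nat.finite_of_card_ne_zero h3

end Vale.Agent.Results.P192.VirtuallyAbelian
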